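import Crest.Agent.S0324Aux.Defs

/-! Similarity transport for S0327: a regular tetrahedron is a similar image of `Ktet`. -/

set_option autoImplicit false
open MeasureTheory
open scoped ENNReal Pointwise

namespace Crest.Agent.S0327Aux

open Crest.Agent.S0324Aux

/-- area scaling under a similarity -/
theorem area_similarity (O : E3 ≃ₗᵢ[ℝ] E3) (lam : ℝ) (hlam : 0 < lam) (b₀ : E3) (s : Set E3) :
    μHE[2] ((fun x => lam • O x + b₀) '' s) = ENNReal.ofReal (lam ^ 2) * μHE[2] s := by
  have h1 : (fun x => lam • O x + b₀) '' s = (fun y => y + b₀) '' (lam • (O '' s)) := by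
    ext y
    simp only [Set.mem_image, Set.mem_smul_set]
    constructor
    · rintro ⟨x, hx, rfl⟩
      exact ⟨lam • O x, ⟨O x, ⟨x, hx, rfl⟩, rfl⟩, rfl⟩
    · rintro ⟨_, ⟨_, ⟨x, hx, rfl⟩, rfl⟩, rfl⟩
      exact ⟨x, hx, rfl⟩
  rw [h1, Isometry.euclideanHausdorffMeasure_image (isometry_add_right b₀),
    Measure.euclideanHausdorffMeasure_smul₀ 2 hlam.ne', Isometry.euclideanHausdorffMeasure_image O.isometry]
  rw [ENNReal.smul_def, smul_eq_mul]
  congr 1
  rw [ENNReal.ofReal, ENNReal.coe_inj]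
  ext
  simp [abs_of_pos hlam]
  positivity

/-- the projection of a similar image -/
theorem proj_similarity (O : E3 ≃ₗᵢ[ℝ] E3) (lam : ℝ) (b₀ v : E3) (K : Set E3) :
    (fun y => y - inner ℝ y v • v) '' ((fun x => lam • O x + b₀) '' K) =
      (fun x => lam • O x + (b₀ - inner ℝ b₀ v • v)) ''
        ((fun y => y - inner ℝ y (O.symm v) • O.symm v) '' K) := by
  rw [Set.image_image, Set.image_image]
  apply Set.image_congr
  intro x _
  have h : inner ℝ (O x) v = inner ℝ x (O.symm v) := by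
    conv_lhs => rw [← O.apply_symm_apply v]
    exact O.inner_map_map x (O.symm v)
  simp only [inner_add_left, inner_smul_left, map_sub, map_smul, O.apply_symm_apply, h,
    RCLike.conj_to_real]
  module

theorem area_proj_similarity (O : E3 ≃ₗᵢ[ℝ] E3) (lam : ℝ) (hlam : 0 < lam) (b₀ v : E3)
    (K : Set E3) :
    μHE[2] ((fun y => y - inner ℝ y v • v) '' ((fun x => lam • O x + b₀) '' K)) =
      ENNReal.ofReal (lam ^ 2) *
        μHE[2] ((fun y => y - inner ℝ y (O.symm v) • O.symm v) '' K) := by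
  rw [proj_similarity, area_similarity O lam hlam]

/-- A linear isometry equivalence sending the standard basis to a given orthonormal frame. -/
theorem exists_isometry_of_frame (E : Fin 3 → E3) (hE : Orthonormal ℝ E) :
    ∃ O : E3 ≃ₗᵢ[ℝ] E3, ∀ x : E3, O x = x 0 • E 0 + x 1 • E 1 + x 2 • E 2 := by
  have hcard : Fintype.card (Fin 3) = Module.finrank ℝ E3 := by simp
  let B := (basisOfOrthonormalOfCardEqFinrank hE hcard).toOrthonormalBasis
    (by rw [coe_basisOfOrthonormalOfCardEqFinrank]; exact hE)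
  have hB : ∀ i, B i = E i := by
    intro i
    simp [B]
  refine ⟨B.repr.symm, fun x => ?_⟩
  rw [← B.sum_repr_symm, Fin.sum_univ_three, hB, hB, hB]

/-- The orthonormal frame of a regular tetrahedron. -/
theorem exists_similarity (w : Fin 4 → E3) (ℓ : ℝ) (hℓ : 0 < ℓ)
    (hw : ∀ i j, i ≠ j → dist (w i) (w j) = ℓ) :
    ∃ (O : E3 ≃ₗᵢ[ℝ] E3) (b₀ : E3),
      (fun x => (ℓ / 2) • O x + b₀) '' Ktet = convexHull ℝ (Set.range w) := by
  have hd : ∀ i j, i ≠ j →
      ‖w i‖ ^ 2 - 2 * inner ℝ (w i) (w j) + ‖w j‖ ^ 2 = ℓ ^ 2 := by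
    intro i j hij
    have h := hw i j hij
    rw [dist_eq_norm] at h
    have h2 := norm_sub_sq_real (w i) (w j)
    rw [h] at h2
    linarith
  have h01 := hd 0 1 (by decide)
  have h02 := hd 0 2 (by decide)
  have h03 := hd 0 3 (by decide)
  have h12 := hd 1 2 (by decide)
  have h13 := hd 1 3 (by decide)
  have h23 := hd 2 3 (by decide)
  have hs2 : Real.sqrt 2 * Real.sqrt 2 = 2 := Real.mul_self_sqrt (by norm_num)
  have hs0 : 0 < Real.sqrt 2 := Real.sqrt_pos.mpr (by norm_num)
  let E : Fin 3 → E3 := ![(1 / ℓ) • (w 0 - w 1), (1 / ℓ) • (w 2 - w 3),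
    (1 / (Real.sqrt 2 * ℓ)) • (w 2 + w 3 - w 0 - w 1)]
  have hE : Orthonormal ℝ E := by
    rw [orthonormal_iff_ite]
    have c10 : inner ℝ (w 1) (w 0) = inner ℝ (w 0) (w 1) := real_inner_comm _ _
    have c20 : inner ℝ (w 2) (w 0) = inner ℝ (w 0) (w 2) := real_inner_comm _ _
    have c30 : inner ℝ (w 3) (w 0) = inner ℝ (w 0) (w 3) := real_inner_comm _ _
    have c21 : inner ℝ (w 2) (w 1) = inner ℝ (w 1) (w 2) := real_inner_comm _ _
    have c31 : inner ℝ (w 3) (w 1) = inner ℝ (w 1) (w 3) := real_inner_comm _ _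
    have c32 : inner ℝ (w 3) (w 2) = inner ℝ (w 2) (w 3) := real_inner_comm _ _
    intro i j
    fin_cases i <;> fin_cases j <;>
      simp only [E, Fin.zero_eta, Fin.mk_one, Fin.reduceFinMk, Matrix.cons_val_zero,
        Matrix.cons_val_one, Matrix.cons_val, inner_smul_left, inner_smul_right, inner_sub_left,
        inner_sub_right, inner_add_left, inner_add_right, c10, c20, c30, c21, c31, c32,
        RCLike.conj_to_real] <;> norm_num <;> field_simp
    all_goals first
      | linarith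
      | (right; linarith)
      | (rw [if_neg (by decide)]; linarith)
      | (rw [Real.sq_sqrt (by norm_num)]; linarith)
  obtain ⟨O, hO⟩ := exists_isometry_of_frame E hE
  refine ⟨O, (1 / 2 : ℝ) • (w 0 + w 1), ?_⟩
  let f : E3 →ᵃ[ℝ] E3 := ((ℓ / 2) • O.toLinearEquiv.toLinearMap).toAffineMap +
    AffineMap.const ℝ E3 ((1 / 2 : ℝ) • (w 0 + w 1))
  have hf : ∀ x, f x = (ℓ / 2) • O x + (1 / 2 : ℝ) • (w 0 + w 1) := fun x => by simp [f]
  have hff : (fun x => (ℓ / 2) • O x + (1 / 2 : ℝ) • (w 0 + w 1)) = f :=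
    funext fun x => (hf x).symm
  rw [hff, Ktet, AffineMap.image_convexHull]
  congr 1
  have hl : ℓ ≠ 0 := hℓ.ne'
  have e0 : f !₂[1, 0, 0] = w 0 := by
    rw [hf, hO]
    simp only [E, Matrix.cons_val_zero, Matrix.cons_val_one, Matrix.cons_val]
    match_scalars <;> field_simp <;> ring
  have e1 : f !₂[-1, 0, 0] = w 1 := by
    rw [hf, hO]
    simp only [E, Matrix.cons_val_zero, Matrix.cons_val_one, Matrix.cons_val]
    match_scalars <;> field_simp <;> ring
  have e2 : f !₂[0, 1, Real.sqrt 2] = w 2 := by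
    rw [hf, hO]
    simp only [E, Matrix.cons_val_zero, Matrix.cons_val_one, Matrix.cons_val]
    match_scalars <;> field_simp <;> ring
  have e3 : f !₂[0, -1, Real.sqrt 2] = w 3 := by
    rw [hf, hO]
    simp only [E, Matrix.cons_val_zero, Matrix.cons_val_one, Matrix.cons_val]
    match_scalars <;> field_simp <;> ring
  simp only [Set.image_insert_eq, Set.image_singleton, e0, e1, e2, e3]
  ext y
  simp only [Set.mem_insert_iff, Set.mem_singleton_iff, Set.mem_range]
  constructor
  · rintro (rfl | rfl | rfl | rfl)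
    exacts [⟨0, rfl⟩, ⟨1, rfl⟩, ⟨2, rfl⟩, ⟨3, rfl⟩]
  · rintro ⟨i, rfl⟩
    fin_cases i <;> simp

end Crest.Agent.S0327Aux
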