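import Crest.Agent.S0324Aux.Area
import Crest.Agent.S0324Aux.Area2
import Crest.Agent.S0324Aux.Cover
import Crest.Agent.S0324Aux.Proj
import Crest.Agent.S0327Aux.Similarity

/-! Parallelogram covers of the standard and of a general regular tetrahedron. -/

set_option autoImplicit false
open MeasureTheory
open scoped ENNReal

namespace Crest.Agent.S0327Aux

open Crest.Agent.S0324Aux

/-- The standard tetrahedron is covered by parallelogram cylinders of small total area. -/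
theorem std_pgram_cover :
    ∃ (k : ℕ) (u c a b : Fin k → E3), (∀ i, ‖u i‖ = 1) ∧
      (∀ i, inner ℝ (c i) (u i) = 0 ∧ inner ℝ (a i) (u i) = 0 ∧ inner ℝ (b i) (u i) = 0) ∧
      Ktet ⊆ ⋃ i, {x : E3 | ∃ y ∈ pgram (c i) (a i) (b i), ∃ τ : ℝ, x = y + τ • u i} ∧
      ∑ i, Real.sqrt (gram2 (a i) (b i)) ≤ Real.sqrt 2 * (1 / 2 - 1 / 10 ^ 10) := by
  obtain ⟨m, u, p, q, r, -, hu, hperp, hcov, harea⟩ := cover_core
  set N : ℕ := 10 ^ 9 with hN
  have hNpos : 0 < N := by positivity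
  choose c a b hsub hpp hsum using fun i => triangle_subset_pgrams (p i) (q i) (r i) N hNpos
  let e := (finProdFinEquiv : Fin m × Fin N ≃ Fin (m * N))
  refine ⟨m * N, fun j => u (e.symm j).1, fun j => c (e.symm j).1 (e.symm j).2,
    fun j => a (e.symm j).1 (e.symm j).2, fun j => b (e.symm j).1 (e.symm j).2,
    fun j => hu _, fun j => ?_, ?_, ?_⟩
  · exact hpp _ _ (hperp _).1 (hperp _).2.1 (hperp _).2.2 _
  · intro x hx
    obtain ⟨i, hi⟩ := Set.mem_iUnion.mp (hcov hx)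
    obtain ⟨y, hy, t, rfl⟩ := hi
    obtain ⟨l, hl⟩ := Set.mem_iUnion.mp (hsub i hy)
    refine Set.mem_iUnion.mpr ⟨e (i, l), y, ?_, t, ?_⟩
    · simpa using hl
    · simp
  · rw [← Equiv.sum_comp e, Fintype.sum_prod_type]
    simp only [Equiv.symm_apply_apply, hsum]
    rw [← Finset.mul_sum]
    have hs : 0 ≤ Real.sqrt 2 := Real.sqrt_nonneg 2
    have hNr : (N : ℝ) = 10 ^ 9 := by rw [hN]; norm_num
    rw [hNr]
    calc (1 + 1 / (10 : ℝ) ^ 9) * ∑ i, Real.sqrt (gram2 (q i - p i) (r i - p i)) / 2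
        ≤ (1 + 1 / (10 : ℝ) ^ 9) * (Real.sqrt 2 * (1 / 2 - 1 / 10 ^ 9)) := by
          apply mul_le_mul_of_nonneg_left harea; positivity
      _ = Real.sqrt 2 * ((1 + 1 / (10 : ℝ) ^ 9) * (1 / 2 - 1 / 10 ^ 9)) := by ring
      _ ≤ Real.sqrt 2 * (1 / 2 - 1 / 10 ^ 10) := by
          apply mul_le_mul_of_nonneg_left _ hs; norm_num

theorem gram2_smul_isometry (O : E3 ≃ₗᵢ[ℝ] E3) (lam : ℝ) (a b : E3) :
    gram2 (lam • O a) (lam • O b) = (lam ^ 2) ^ 2 * gram2 a b := by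
  unfold gram2
  rw [norm_smul, norm_smul, O.norm_map, O.norm_map, inner_smul_left, inner_smul_right,
    O.inner_map_map, mul_pow, mul_pow, Real.norm_eq_abs, sq_abs]
  simp only [RCLike.conj_to_real]
  ring

/-- A general regular tetrahedron is covered by parallelogram cylinders of small total area. -/
theorem general_pgram_cover (w : Fin 4 → E3) (ℓ : ℝ) (hℓ : 0 < ℓ)
    (hw : ∀ i j, i ≠ j → dist (w i) (w j) = ℓ) :
    ∃ (k : ℕ) (u c a b : Fin k → E3), (∀ i, ‖u i‖ = 1) ∧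
      (∀ i, inner ℝ (c i) (u i) = 0 ∧ inner ℝ (a i) (u i) = 0 ∧ inner ℝ (b i) (u i) = 0) ∧
      convexHull ℝ (Set.range w) ⊆
        ⋃ i, {x : E3 | ∃ y ∈ pgram (c i) (a i) (b i), ∃ τ : ℝ, x = y + τ • u i} ∧
      ∑ i, Real.sqrt (gram2 (a i) (b i)) ≤
        ((ℓ / 2) ^ 2 * Real.sqrt 2) * (1 / 2 - 1 / 10 ^ 10) ∧
      ∀ v : E3, ‖v‖ = 1 → (ℓ / 2) ^ 2 * Real.sqrt 2 ≤
        (μHE[2] ((fun y => y - inner ℝ y v • v) '' convexHull ℝ (Set.range w))).toReal := by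
  obtain ⟨O, b₀, hΨ⟩ := exists_similarity w ℓ hℓ hw
  obtain ⟨k, u, c, a, b, hu, hperp, hcov, hsum⟩ := std_pgram_cover
  have hlam : 0 < ℓ / 2 := by positivity
  set lam := ℓ / 2 with hlamdef
  refine ⟨k, fun i => O (u i),
    fun i => lam • O (c i) + (b₀ - inner ℝ b₀ (O (u i)) • O (u i)),
    fun i => lam • O (a i), fun i => lam • O (b i), fun i => ?_, fun i => ⟨?_, ?_, ?_⟩, ?_, ?_, ?_⟩
  · rw [O.norm_map]; exact hu i
  · have h1 : inner ℝ (O (u i)) (O (u i)) = 1 := by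
      rw [O.inner_map_map, real_inner_self_eq_norm_sq, hu i]; norm_num
    rw [inner_add_left, inner_sub_left, inner_smul_left, inner_smul_left, O.inner_map_map,
      (hperp i).1, h1]
    simp
  · rw [inner_smul_left, O.inner_map_map, (hperp i).2.1]; simp
  · rw [inner_smul_left, O.inner_map_map, (hperp i).2.2]; simp
  · rw [← hΨ]
    rintro _ ⟨x, hx, rfl⟩
    obtain ⟨i, hi⟩ := Set.mem_iUnion.mp (hcov hx)
    obtain ⟨y, ⟨s, hs, t, ht, rfl⟩, τ, rfl⟩ := hi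
    refine Set.mem_iUnion.mpr ⟨i, _, ⟨s, hs, t, ht, rfl⟩, lam * τ + inner ℝ b₀ (O (u i)), ?_⟩
    simp only [map_add, map_smul]
    module
  · simp only [gram2_smul_isometry]
    have : ∀ i, Real.sqrt ((lam ^ 2) ^ 2 * gram2 (a i) (b i)) =
        lam ^ 2 * Real.sqrt (gram2 (a i) (b i)) := by
      intro i
      rw [Real.sqrt_mul (by positivity), Real.sqrt_sq (by positivity)]
    simp only [this]
    rw [← Finset.mul_sum, mul_assoc]
    exact mul_le_mul_of_nonneg_left hsum (by positivity)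
  · intro v hv
    have hv' : ‖O.symm v‖ = 1 := by rw [O.symm.norm_map]; exact hv
    rw [← hΨ, area_proj_similarity O lam hlam, ENNReal.toReal_mul,
      ENNReal.toReal_ofReal (by positivity)]
    apply mul_le_mul_of_nonneg_left _ (by positivity)
    exact (ENNReal.ofReal_le_iff_le_toReal (proj_area_lt_top _ hv').ne).mp (proj_area_ge _ hv')

/-- Numerical bookkeeping common to both parts of S0327. -/
theorem assemble {k : ℕ} (α : Fin k → ℝ) (hα : ∀ i, 0 ≤ α i) (P : E3 → ℝ) (u : Fin k → E3)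
    (hu : ∀ i, ‖u i‖ = 1) (A₀ ε : ℝ) (hA : 0 < A₀) (hε : 0 < ε)
    (hP : ∀ v, ‖v‖ = 1 → A₀ ≤ P v) (hsum : ∑ i, α i ≤ A₀ * (1 / 2 - ε)) :
    (∃ δ : ℝ, 0 < δ ∧ ∀ v : E3, ‖v‖ = 1 → (∑ i, α i) + δ ≤ P v / 2) ∧
      ∑ i, α i / P (u i) < 1 / 2 := by
  constructor
  · refine ⟨A₀ * ε, by positivity, fun v hv => ?_⟩
    have := hP v hv
    nlinarith
  · have h1 : ∑ i, α i / P (u i) ≤ ∑ i, α i / A₀ := by
      apply Finset.sum_le_sum
      intro i _
      exact div_le_div_of_nonneg_left (hα i) hA (hP _ (hu i))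
    have h2 : ∑ i, α i / A₀ ≤ 1 / 2 - ε := by
      rw [← Finset.sum_div, div_le_iff₀ hA]
      linarith
    linarith

theorem isCompact_pgram (c a b : E3) : IsCompact (pgram c a b) := by
  have h : pgram c a b = (fun st : ℝ × ℝ => c + st.1 • a + st.2 • b) ''
      (Set.Icc (0 : ℝ) 1 ×ˢ Set.Icc (0 : ℝ) 1) := by
    ext x
    simp only [pgram, Set.mem_ofPred_eq, Set.mem_image, Set.mem_prod, Prod.exists]
    constructor
    · rintro ⟨s, hs, t, ht, rfl⟩
      exact ⟨s, t, ⟨hs, ht⟩, rfl⟩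
    · rintro ⟨s, t, ⟨hs, ht⟩, rfl⟩
      exact ⟨s, hs, t, ht, rfl⟩
  rw [h]
  apply (isCompact_Icc.prod isCompact_Icc).image
  fun_prop

theorem area_pgram_toReal (c a b : E3) :
    (μHE[2] (pgram c a b)).toReal = Real.sqrt (gram2 a b) := by
  rw [area_pgram, ENNReal.toReal_ofReal (Real.sqrt_nonneg _)]

end Crest.Agent.S0327Aux
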